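import Vale.Agent.P258.R2.H863.Spec

namespace Vale.Agent.P258.R2.H855

open Vale.Agent.P258.R2.H863

theorem free_dvd : SpecFree := by
  intro H X _ _ _ _ hf
  classical
  have hst : ∀ x : X, MulAction.stabilizer H x = ⊥ := by
    intro x
    rw [Subgroup.eq_bot_iff_forall]
    intro h hh
    exact hf x h hh
  have : Finite (MulAction.orbitRel.Quotient H X) := Quotient.finite _
  have : Fintype (MulAction.orbitRel.Quotient H X) := Fintype.ofFinite _
  rw [Nat.card_congr (MulAction.selfEquivSigmaOrbitsQuotientStabilizer H X), Nat.card_sigma]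
  apply Finset.dvd_sum
  intro w _
  have : Nat.card (H ⧸ MulAction.stabilizer H (Quotient.out w)) =
      (MulAction.stabilizer H (Quotient.out w)).index := rfl
  rw [this, hst, Subgroup.index_bot]

set_option maxRecDepth 100000 in
theorem step1 : ∀ c y : Equiv.Perm (Fin 4), c ^ 4 = 1 → c ^ 2 ≠ 1 → y * c = c * y →
    (y = 1 ∨ y = c ∨ y = c ^ 2 ∨ y = c ^ 3) := by
  decide +kernel

set_option maxRecDepth 100000 in
theorem step2 : ∀ c d : Equiv.Perm (Fin 4), c ^ 4 = 1 → c ^ 2 ≠ 1 → d ^ 4 = 1 → c ^ 2 = d ^ 2 →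
    (d = c ∨ d = c⁻¹) := by
  decide +kernel

theorem cent : SpecCent := by
  rintro c d y ⟨hc4, hc2⟩ ⟨hd4, hd2⟩ h1 h2 hyc hyd
  have hcd : ¬ (c * d = d * c) := by
    intro h
    rcases step1 d c hd4 hd2 h with h | h | h | h
    · exact hc2 (by rw [h, one_pow])
    · exact h1 h.symm
    · exact hc2 (by rw [h, ← pow_mul, hd4])
    · apply h2
      rw [h, eq_inv_iff_mul_eq_one, ← pow_succ', hd4]
  rcases step1 c y hc4 hc2 hyc with h | h | h | h
  · exact h
  · exact absurd (h ▸ hyd) hcd
  · exfalso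
    have hy : c ^ 2 * d = d * c ^ 2 := h ▸ hyd
    rcases step1 d (c ^ 2) hd4 hd2 hy with h | h | h | h
    · exact hc2 h
    · exact hd2 (by rw [← h, ← pow_mul, hc4])
    · rcases step2 c d hc4 hc2 hd4 h with h | h
      · exact h1 h
      · exact h2 h
    · have h3 : (d ^ 3) ^ 2 = 1 := by rw [← h, ← pow_mul, hc4]
      rw [← pow_mul, show 3 * 2 = 4 + 2 from rfl, pow_add, hd4, one_mul] at h3
      exact hd2 h3
  · exfalso
    have hy : c ^ 3 * d = d * c ^ 3 := h ▸ hyd
    have hinv : c ^ 3 = c⁻¹ := by rw [eq_inv_iff_mul_eq_one, ← pow_succ, hc4]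
    rw [hinv] at hy
    apply hcd
    have h5 : c * (c⁻¹ * d) * c = c * (d * c⁻¹) * c := by rw [hy]
    simpa [mul_assoc] using h5.symm

theorem count : SpecCount := by
  intro Γ G _ _ _ det _
  classical
  rw [← Nat.card_congr (Equiv.sumCompl (fun f : Γ →* G => ∃ x, det (f x) ≠ 1)), Nat.card_sum]
  congr 1
  refine Nat.card_congr
    { toFun := fun f => f.1.codRestrict det.ker (fun x => by
        have := f.2
        push Not at this
        exact this x)
      invFun := fun g => ⟨det.ker.subtype.comp g, by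
        push Not
        intro x
        exact (g x).2⟩
      left_inv := ?_
      right_inv := ?_ }
  · intro f
    ext x
    rfl
  · intro g
    ext x
    rfl

end Vale.Agent.P258.R2.H855
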